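import Vale.Agent.P327.Basic

namespace Vale.Agent.P327
open Encodable

/-- Bounded search: the least `m < k` with `g m = some 0`, provided all earlier values are
defined and nonzero. -/
def bsearch (g : ℕ → Option ℕ) (k : ℕ) : Option ℕ :=
  if Nat.findGreatest (fun L => ∀ i < L, (g i).getD 0 ≠ 0) k < k ∧
      g (Nat.findGreatest (fun L => ∀ i < L, (g i).getD 0 ≠ 0) k) = some 0 then
    some (Nat.findGreatest (fun L => ∀ i < L, (g i).getD 0 ≠ 0) k) else none

theorem bsearch_eq_some (g : ℕ → Option ℕ) (k m : ℕ) :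
    bsearch g k = some m ↔ m < k ∧ g m = some 0 ∧ ∀ i < m, (g i).getD 0 ≠ 0 := by
  unfold bsearch
  constructor
  · intro h
    split_ifs at h with hc
    have hm : Nat.findGreatest (fun L => ∀ i < L, (g i).getD 0 ≠ 0) k = m := by simpa using h
    rw [hm] at hc
    refine ⟨hc.1, hc.2, ?_⟩
    have := @Nat.findGreatest_spec 0 (fun L => ∀ i < L, (g i).getD 0 ≠ 0) _ k (Nat.zero_le _)
      (by intro i hi; omega)
    rw [hm] at this
    exact this
  · rintro ⟨h1, h2, h3⟩
    have hm : Nat.findGreatest (fun L => ∀ i < L, (g i).getD 0 ≠ 0) k = m := by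
      rw [Nat.findGreatest_eq_iff]
      refine ⟨h1.le, fun _ => h3, ?_⟩
      intro n hn _ hP
      exact hP m hn (by simp [h2])
    rw [hm, if_pos ⟨h1, h2⟩]

theorem primrecRel_forall_lt {α : Type} [Primcodable α] {R : ℕ → α → Prop}
    (hR : PrimrecRel R) : PrimrecRel (fun (a : α) (L : ℕ) => ∀ i < L, R i a) :=
  (hR.forall_mem_list.comp (Primrec.list_range.comp Primrec.snd) Primrec.fst).of_eq (by simp)

theorem primrec_bsearch {α : Type} [Primcodable α] {g : α → ℕ → Option ℕ} {k : α → ℕ}
    (hg : Primrec₂ g) (hk : Primrec k) : Primrec fun a => bsearch (g a) (k a) := by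
  have hR : PrimrecRel (fun (i : ℕ) (a : α) => (g a i).getD 0 ≠ 0) := by
    apply PrimrecRel.not
    apply Primrec.eq.comp₂
    · exact (Primrec.option_getD.comp₂ hg.swap (Primrec₂.const 0))
    · exact Primrec₂.const 0
  have hP : PrimrecRel (fun (a : α) (L : ℕ) => ∀ i < L, (g a i).getD 0 ≠ 0) :=
    primrecRel_forall_lt hR
  have hF : Primrec fun a => Nat.findGreatest (fun L => ∀ i < L, (g a i).getD 0 ≠ 0) (k a) :=
    Primrec.nat_findGreatest hk hP
  unfold bsearch
  apply Primrec.ite
  · apply PrimrecPred.and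
    · exact Primrec.nat_lt.comp hF hk
    · exact Primrec.eq.comp (hg.comp Primrec.id hF) (Primrec.const _)
  · exact Primrec.option_some.comp hF
  · exact Primrec.const _

/-- A primitive recursive, monotone evaluation of an oracle program on finite strings. -/
structure IsApprox (ψ : List Bool → ℕ → Option ℕ) : Prop where
  prim : Primrec₂ ψ
  mono : ∀ t t' n v, t <+: t' → ψ t n = some v → ψ t' n = some v

/-- `ψ` reaches every value of `f` along the prefixes of `Y`. -/
def Covers (ψ : List Bool → ℕ → Option ℕ) (Y : ℕ → Bool) (f : ℕ →. ℕ) : Prop :=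
  ∀ n v, v ∈ f n → ∃ l, ψ (pre Y l) n = some v

theorem IsApprox.up {ψ : List Bool → ℕ → Option ℕ} (h : IsApprox ψ) {Y : ℕ → Bool} {l l' n v : ℕ}
    (hl : l ≤ l') (hv : ψ (pre Y l) n = some v) : ψ (pre Y l') n = some v :=
  h.mono _ _ _ _ (pre_prefix Y hl) hv

theorem exists_uniform {Q : ℕ → ℕ → Prop} (hQ : ∀ i l l', l ≤ l' → Q i l → Q i l') (m : ℕ)
    (h : ∀ i < m, ∃ l, Q i l) : ∃ l, ∀ i < m, Q i l := by
  induction m with
  | zero => exact ⟨0, fun i hi => absurd hi (Nat.not_lt_zero _)⟩
  | succ m ih =>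
    obtain ⟨l1, h1⟩ := ih (fun i hi => h i (Nat.lt_succ_of_lt hi))
    obtain ⟨l2, h2⟩ := h m (Nat.lt_succ_self m)
    refine ⟨max l1 l2, fun i hi => ?_⟩
    rcases Nat.lt_succ_iff_lt_or_eq.1 hi with hi | rfl
    · exact hQ _ _ _ (le_max_left _ _) (h1 i hi)
    · exact hQ _ _ _ (le_max_right _ _) h2

theorem exists_approx (Y : ℕ → Bool) (f : ℕ →. ℕ) (hf : Nat.RecursiveIn {chi Y} f) :
    ∃ ψ, IsApprox ψ ∧ Covers ψ Y f := by
  induction hf with
  | zero =>
    refine ⟨fun _ _ => some 0, ⟨Primrec₂.const _, fun _ _ _ _ _ h => h⟩, ?_⟩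
    intro n v hv
    refine ⟨0, ?_⟩
    have : v = 0 := by simpa [Part.zero_def] using hv
    simp [this]
  | succ =>
    refine ⟨fun _ n => some (n+1), ⟨?_, fun _ _ _ _ _ h => h⟩, ?_⟩
    · exact Primrec.option_some.comp (Primrec.succ.comp Primrec.snd)
    · intro n v hv
      refine ⟨0, ?_⟩
      have : v = n + 1 := by simpa using hv
      simp [this]
  | left =>
    refine ⟨fun _ n => some (Nat.unpair n).1, ⟨?_, fun _ _ _ _ _ h => h⟩, ?_⟩
    · exact Primrec.option_some.comp (Primrec.fst.comp (Primrec.unpair.comp Primrec.snd))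
    · intro n v hv
      refine ⟨0, ?_⟩
      have : v = (Nat.unpair n).1 := by simpa using hv
      simp [this]
  | right =>
    refine ⟨fun _ n => some (Nat.unpair n).2, ⟨?_, fun _ _ _ _ _ h => h⟩, ?_⟩
    · exact Primrec.option_some.comp (Primrec.snd.comp (Primrec.unpair.comp Primrec.snd))
    · intro n v hv
      refine ⟨0, ?_⟩
      have : v = (Nat.unpair n).2 := by simpa using hv
      simp [this]
  | oracle g hg =>
    have hg' : g = chi Y := by simpa using hg
    subst hg'
    refine ⟨fun t n => (t[n]?).map Bool.toNat, ⟨?_, ?_⟩, ?_⟩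
    · exact Primrec.option_map Primrec.list_getElem?
        ((Primrec.dom_bool Bool.toNat).comp Primrec.snd).to₂
    · intro t t' n v ht hv
      obtain ⟨b, hb, rfl⟩ := Option.map_eq_some_iff.1 hv
      have : t'[n]? = some b := by
        obtain ⟨r, rfl⟩ := ht
        have hn : n < t.length := (List.getElem?_eq_some_iff.1 hb).1
        rw [List.getElem?_append_left hn, hb]
      simp [this]
    · intro n v hv
      refine ⟨n+1, ?_⟩
      have : v = (Y n).toNat := by simpa [chi] using hv
      show Option.map Bool.toNat (pre Y (n + 1))[n]? = some v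
      rw [pre_getElem?]
      simp [this]
  | @pair f h _ _ ihf ihg =>
    obtain ⟨ψf, hf, cf⟩ := ihf
    obtain ⟨ψh, hh, ch⟩ := ihg
    refine ⟨fun t n => (ψf t n).bind fun a => (ψh t n).map (Nat.pair a), ⟨?_, ?_⟩, ?_⟩
    · apply Primrec.option_bind hf.prim
      apply Primrec.option_map
      · exact hh.prim.comp (Primrec.fst.comp Primrec.fst) (Primrec.snd.comp Primrec.fst)
      · exact Primrec₂.natPair.comp (Primrec.snd.comp Primrec.fst) Primrec.snd
    · intro t t' n v ht hv
      obtain ⟨a, ha, hv⟩ := Option.bind_eq_some_iff.1 hv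
      obtain ⟨b, hb, rfl⟩ := Option.map_eq_some_iff.1 hv
      simp [hf.mono _ _ _ _ ht ha, hh.mono _ _ _ _ ht hb]
    · intro n v hv
      have : ∃ a ∈ f n, ∃ b ∈ h n, v = Nat.pair a b := by
        simpa [Seq.seq, eq_comm] using hv
      obtain ⟨a, ha, b, hb, rfl⟩ := this
      obtain ⟨l1, h1⟩ := cf n a ha
      obtain ⟨l2, h2⟩ := ch n b hb
      refine ⟨max l1 l2, ?_⟩
      simp [hf.up (le_max_left l1 l2) h1, hh.up (le_max_right l1 l2) h2]
  | @comp f h _ _ ihf ihg =>
    obtain ⟨ψf, hf, cf⟩ := ihf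
    obtain ⟨ψh, hh, ch⟩ := ihg
    refine ⟨fun t n => (ψh t n).bind fun a => ψf t a, ⟨?_, ?_⟩, ?_⟩
    · apply Primrec.option_bind hh.prim
      exact hf.prim.comp (Primrec.fst.comp Primrec.fst) Primrec.snd
    · intro t t' n v ht hv
      obtain ⟨a, ha, hv⟩ := Option.bind_eq_some_iff.1 hv
      simp [hh.mono _ _ _ _ ht ha, hf.mono _ _ _ _ ht hv]
    · intro n v hv
      obtain ⟨a, ha, hv⟩ := Part.mem_bind_iff.1 hv
      obtain ⟨l1, h1⟩ := ch n a ha
      obtain ⟨l2, h2⟩ := cf a v hv
      refine ⟨max l1 l2, ?_⟩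
      simp [hh.up (le_max_left l1 l2) h1, hf.up (le_max_right l1 l2) h2]
  | @prec f h _ _ ihf ihg =>
    obtain ⟨ψf, hf, cf⟩ := ihf
    obtain ⟨ψh, hh, ch⟩ := ihg
    refine ⟨fun t p => Nat.rec (ψf t (Nat.unpair p).1)
      (fun y IH => IH.bind fun i => ψh t (Nat.pair (Nat.unpair p).1 (Nat.pair y i)))
      (Nat.unpair p).2, ⟨?_, ?_⟩, ?_⟩
    · apply Primrec.nat_rec' (f := fun a : List Bool × ℕ => (Nat.unpair a.2).2)
        (g := fun a : List Bool × ℕ => ψf a.1 (Nat.unpair a.2).1)
        (h := fun (a : List Bool × ℕ) (q : ℕ × Option ℕ) =>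
          q.2.bind fun i => ψh a.1 (Nat.pair (Nat.unpair a.2).1 (Nat.pair q.1 i)))
      · exact Primrec.snd.comp (Primrec.unpair.comp Primrec.snd)
      · exact hf.prim.comp Primrec.fst (Primrec.fst.comp (Primrec.unpair.comp Primrec.snd))
      · apply Primrec.option_bind (Primrec.snd.comp Primrec.snd)
        apply hh.prim.comp (Primrec.fst.comp (Primrec.fst.comp Primrec.fst))
        apply Primrec₂.natPair.comp
        · exact Primrec.fst.comp (Primrec.unpair.comp
            (Primrec.snd.comp (Primrec.fst.comp Primrec.fst)))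
        · exact Primrec₂.natPair.comp (Primrec.fst.comp (Primrec.snd.comp Primrec.fst))
            Primrec.snd
    · intro t t' p v ht
      generalize (Nat.unpair p).2 = m
      induction m generalizing v with
      | zero => exact fun hv => hf.mono _ _ _ _ ht hv
      | succ m ih =>
        intro hv
        obtain ⟨i, hi, hv⟩ := Option.bind_eq_some_iff.1 hv
        have h1 := ih i hi
        have h2 := hh.mono _ _ _ _ ht hv
        simp only [h1]
        exact h2
    · intro p v hv
      have key : ∀ (m v : ℕ), v ∈ (Nat.rec (f (Nat.unpair p).1)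
          (fun y IH => IH.bind fun i => h (Nat.pair (Nat.unpair p).1 (Nat.pair y i))) m : Part ℕ) →
          ∃ l, ∀ l', l ≤ l' → (Nat.rec (ψf (pre Y l') (Nat.unpair p).1)
            (fun y IH => IH.bind fun i => ψh (pre Y l') (Nat.pair (Nat.unpair p).1 (Nat.pair y i)))
            m : Option ℕ) = some v := by
        intro m
        induction m with
        | zero =>
          intro v hv
          obtain ⟨l, hl⟩ := cf _ _ hv
          exact ⟨l, fun l' hl' => hf.up hl' hl⟩
        | succ m ih =>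
          intro v hv
          obtain ⟨i, hi, hv⟩ := Part.mem_bind_iff.1 hv
          obtain ⟨l1, h1⟩ := ih i hi
          obtain ⟨l2, h2⟩ := ch _ _ hv
          refine ⟨max l1 l2, fun l' hl' => ?_⟩
          have e1 := h1 l' (le_trans (le_max_left _ _) hl')
          have e2 := hh.up (le_trans (le_max_right _ _) hl') h2
          simp only [e1]
          exact e2
      obtain ⟨l, hl⟩ := key (Nat.unpair p).2 v hv
      exact ⟨l, hl l le_rfl⟩
  | @rfind f _ ihf =>
    obtain ⟨ψf, hf, cf⟩ := ihf
    refine ⟨fun t a => bsearch (fun i => ψf t (Nat.pair a i)) t.length, ⟨?_, ?_⟩, ?_⟩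
    · apply primrec_bsearch (g := fun (a : List Bool × ℕ) i => ψf a.1 (Nat.pair a.2 i))
        (k := fun a : List Bool × ℕ => a.1.length)
      · exact hf.prim.comp (Primrec.fst.comp Primrec.fst)
          (Primrec₂.natPair.comp (Primrec.snd.comp Primrec.fst) Primrec.snd)
      · exact Primrec.list_length.comp Primrec.fst
    · intro t t' a m ht hv
      rw [bsearch_eq_some] at hv ⊢
      obtain ⟨h1, h2, h3⟩ := hv
      refine ⟨lt_of_lt_of_le h1 ht.length_le, hf.mono _ _ _ _ ht h2, fun i hi => ?_⟩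
      have := h3 i hi
      rcases hx : ψf t (Nat.pair a i) with _ | x
      · simp [hx] at this
      · rw [hf.mono _ _ _ _ ht hx]
        simpa [hx] using this
    · intro a m hm
      have hm' : m ∈ Nat.rfind fun n => (fun m => decide (m = 0)) <$> f (Nat.pair a n) := hm
      obtain ⟨h1, h2⟩ := Nat.mem_rfind.1 hm'
      have h1' : 0 ∈ f (Nat.pair a m) := by
        obtain ⟨x, hx, hx0⟩ := (Part.mem_map_iff _).1 h1
        have : x = 0 := by simpa using hx0
        exact this ▸ hx
      have h2' : ∀ i < m, ∃ l, ∃ x, x ≠ 0 ∧ ψf (pre Y l) (Nat.pair a i) = some x := by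
        intro i hi
        obtain ⟨x, hx, hx0⟩ := (Part.mem_map_iff _).1 (h2 hi)
        have hx0' : x ≠ 0 := by simpa using hx0
        obtain ⟨l, hl⟩ := cf _ _ hx
        exact ⟨l, x, hx0', hl⟩
      obtain ⟨l1, hl1⟩ := exists_uniform
        (Q := fun i l => ∃ x, x ≠ 0 ∧ ψf (pre Y l) (Nat.pair a i) = some x)
        (fun i l l' hl ⟨x, hx, hq⟩ => ⟨x, hx, hf.up hl hq⟩) m h2'
      obtain ⟨l2, hl2⟩ := cf _ _ h1'
      refine ⟨max (max l1 l2) (m+1), ?_⟩
      show bsearch _ _ = some m
      rw [bsearch_eq_some]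
      refine ⟨?_, ?_, ?_⟩
      · rw [pre_length]
        exact lt_of_lt_of_le (Nat.lt_succ_self m) (le_max_right _ _)
      · exact hf.up (le_trans (le_max_right _ _) (le_max_left _ _)) hl2
      · intro i hi
        obtain ⟨x, hx, hq⟩ := hl1 i hi
        rw [hf.up (le_trans (le_max_left _ _) (le_max_left _ _)) hq]
        simpa using hx

theorem countable_isApprox : Countable {ψ : List Bool → ℕ → Option ℕ // IsApprox ψ} := by
  have hex : ∀ ψ : {ψ : List Bool → ℕ → Option ℕ // IsApprox ψ}, ∃ c : Nat.Partrec.Code,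
      c.eval = fun n => Part.bind ((decode (α := List Bool × ℕ) n : Option (List Bool × ℕ)) :
        Part (List Bool × ℕ)) fun a => (Part.some (ψ.1 a.1 a.2)).map encode := by
    intro ψ
    exact Nat.Partrec.Code.exists_code.1 ψ.2.prim.to_comp
  choose g hg using hex
  apply Function.Injective.countable (f := g)
  intro ψ ψ' h
  apply Subtype.ext
  funext t n
  have h1 := congrFun (hg ψ) (encode (t, n))
  have h2 := congrFun (hg ψ') (encode (t, n))
  rw [h, h2] at h1
  simpa using h1.symm

end Vale.Agent.P327
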