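import Vale.Agent.P327.Basic

namespace Vale.Agent.P327
open Topology

theorem mem_cylinder_iff_pre (Y Z : ℕ → Bool) (l : ℕ) :
    Z ∈ PiNat.cylinder Y l ↔ pre Z l = pre Y l := by
  rw [pre_eq_iff]
  rfl

theorem isOpen_cyl (Y : ℕ → Bool) (l : ℕ) : IsOpen {Z : ℕ → Bool | pre Z l = pre Y l} := by
  have : {Z : ℕ → Bool | pre Z l = pre Y l} = PiNat.cylinder Y l := by
    ext Z
    exact (mem_cylinder_iff_pre Y Z l).symm
  rw [this]
  exact PiNat.isOpen_cylinder _ Y l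

theorem exists_cyl_subset {U : Set (ℕ → Bool)} (hU : IsOpen U) {Y : ℕ → Bool} (hY : Y ∈ U) :
    ∃ l, ∀ Z, pre Z l = pre Y l → Z ∈ U := by
  obtain ⟨t, ht, hYt, htU⟩ :=
    (PiNat.isTopologicalBasis_cylinders (fun _ : ℕ => Bool)).exists_subset_of_mem_open hY hU
  obtain ⟨x, n, rfl⟩ := ht
  refine ⟨n, fun Z hZ => htU ?_⟩
  rw [mem_cylinder_iff_pre] at hYt ⊢
  rw [hZ, hYt]

theorem unif_loc_const (g : (ℕ → Bool) → Bool) (hg : Continuous g) :
    ∃ m, ∀ Y Z, pre Y m = pre Z m → g Y = g Z := by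
  have key : ∃ m, ∀ Y ∈ (Set.univ : Set (ℕ → Bool)), ∀ Z, pre Y m = pre Z m → g Y = g Z := by
    apply isCompact_univ.induction_on
      (p := fun s => ∃ m, ∀ Y ∈ s, ∀ Z, pre Y m = pre Z m → g Y = g Z)
    · exact ⟨0, fun Y hY => absurd hY (Set.notMem_empty _)⟩
    · rintro s t hst ⟨m, hm⟩
      exact ⟨m, fun Y hY => hm Y (hst hY)⟩
    · rintro s t ⟨m1, h1⟩ ⟨m2, h2⟩
      refine ⟨max m1 m2, ?_⟩
      rintro Y (hY | hY) Z hZ
      · apply h1 Y hY Z
        rw [pre_eq_iff] at hZ ⊢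
        exact fun n hn => hZ n (lt_of_lt_of_le hn (le_max_left _ _))
      · apply h2 Y hY Z
        rw [pre_eq_iff] at hZ ⊢
        exact fun n hn => hZ n (lt_of_lt_of_le hn (le_max_right _ _))
    · intro Y _
      have hU : IsOpen (g ⁻¹' {g Y}) := (isOpen_discrete {g Y}).preimage hg
      obtain ⟨l, hl⟩ := exists_cyl_subset hU (Y := Y) rfl
      refine ⟨{Z | pre Z l = pre Y l}, ?_, l, ?_⟩
      · exact mem_nhdsWithin_of_mem_nhds ((isOpen_cyl Y l).mem_nhds rfl)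
      · intro Y' hY' Z hZ
        have h1 : g Y' = g Y := hl Y' hY'
        have h2 : g Z = g Y := hl Z (by rw [← hZ]; exact hY')
        rw [h1, h2]
  obtain ⟨m, hm⟩ := key
  exact ⟨m, fun Y Z h => hm Y (Set.mem_univ _) Z h⟩

theorem pre_eq_of_le {Y Z : ℕ → Bool} {l m : ℕ} (h : l ≤ m) (e : pre Y m = pre Z m) :
    pre Y l = pre Z l := by
  rw [pre_eq_iff] at e ⊢
  exact fun n hn => e n (lt_of_lt_of_le hn h)

/-- Uniform continuity of a continuous self-map of Cantor space, in terms of prefixes. -/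
theorem unif_cont (K : (ℕ → Bool) → (ℕ → Bool)) (hK : Continuous K) (b : ℕ) :
    ∃ m, ∀ Y Z, pre Y m = pre Z m → pre (K Y) b = pre (K Z) b := by
  induction b with
  | zero => exact ⟨0, fun Y Z _ => by simp [pre]⟩
  | succ b ih =>
    obtain ⟨m1, h1⟩ := ih
    obtain ⟨m2, h2⟩ := unif_loc_const (fun Y => K Y b) ((continuous_apply b).comp hK)
    refine ⟨max m1 m2, fun Y Z h => ?_⟩
    have e1 := h1 Y Z (pre_eq_of_le (le_max_left _ _) h)
    have e2 := h2 Y Z (pre_eq_of_le (le_max_right _ _) h)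
    rw [pre_eq_iff] at e1 ⊢
    intro n hn
    rcases Nat.lt_succ_iff_lt_or_eq.1 hn with hn | rfl
    · exact e1 n hn
    · exact e2

end Vale.Agent.P327
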