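import Vale.Agent.P327.Approx
import Vale.Agent.P327.Topo

namespace Vale.Agent.P327
open Encodable Topology

/-- The set of oracles on which the approximation `ψ` computes `K`. -/
def Good (K : (ℕ → Bool) → (ℕ → Bool)) (ψ : List Bool → ℕ → Option ℕ) : Set (ℕ → Bool) :=
  {Y | ∀ n, ∃ l, ψ (pre Y l) n = some (K Y n).toNat}

theorem exists_good (K : (ℕ → Bool) → (ℕ → Bool)) (hT : ∀ Y, TLe (K Y) Y) (Y : ℕ → Bool) :
    ∃ ψ, IsApprox ψ ∧ Y ∈ Good K ψ := by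
  have h : Nat.RecursiveIn {chi Y} (chi (K Y)) := RecursiveIn.iff_nat.1 (hT Y)
  obtain ⟨ψ, h1, h2⟩ := exists_approx Y _ h
  refine ⟨ψ, h1, fun n => h2 n _ ?_⟩
  simp [chi]

/-- Baire category: some approximation is correct on a dense subset of some cylinder. -/
theorem exists_dense_good (K : (ℕ → Bool) → (ℕ → Bool)) (hT : ∀ Y, TLe (K Y) Y) :
    ∃ ψ, IsApprox ψ ∧ ∃ s : List Bool, ∀ Y, pre Y s.length = s → Y ∈ closure (Good K ψ) := by
  have := countable_isApprox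
  have hU : ⋃ ψ : {ψ : List Bool → ℕ → Option ℕ // IsApprox ψ}, closure (Good K ψ.1) =
      Set.univ := by
    apply Set.eq_univ_of_forall
    intro Y
    obtain ⟨ψ, h1, h2⟩ := exists_good K hT Y
    exact Set.mem_iUnion.2 ⟨⟨ψ, h1⟩, subset_closure h2⟩
  obtain ⟨ψ, Y0, hY0⟩ := nonempty_interior_of_iUnion_of_closed (fun _ => isClosed_closure) hU
  obtain ⟨l, hl⟩ := exists_cyl_subset isOpen_interior hY0
  refine ⟨ψ.1, ψ.2, pre Y0 l, fun Y hY => ?_⟩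
  rw [pre_length] at hY
  exact interior_subset (hl Y hY)

theorem local_sound {K : (ℕ → Bool) → (ℕ → Bool)} (hK : Continuous K)
    {ψ : List Bool → ℕ → Option ℕ} (hψ : IsApprox ψ) {Y : ℕ → Bool}
    (hY : Y ∈ closure (Good K ψ)) {l n v : ℕ} (hv : ψ (pre Y l) n = some v) :
    (K Y n).toNat = v := by
  have hU : IsOpen ({Z | pre Z l = pre Y l} ∩ (fun Z => K Z n) ⁻¹' {K Y n}) :=
    (isOpen_cyl Y l).inter ((isOpen_discrete _).preimage ((continuous_apply n).comp hK))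
  obtain ⟨Z, ⟨hZ1, hZ2⟩, hZ3⟩ := mem_closure_iff.1 hY _ hU ⟨rfl, rfl⟩
  obtain ⟨l1, h1⟩ := hZ3 n
  have hZ1' : pre Z l = pre Y l := hZ1
  have hZ2' : K Z n = K Y n := hZ2
  rw [← hZ1'] at hv
  have e1 := hψ.up (le_max_left l l1) hv
  have e2 := hψ.up (le_max_right l l1) h1
  rw [e1] at e2
  rw [← hZ2']
  exact (Option.some.inj e2).symm

theorem local_dense {K : (ℕ → Bool) → (ℕ → Bool)}
    {ψ : List Bool → ℕ → Option ℕ} (hψ : IsApprox ψ) {Y : ℕ → Bool}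
    (hY : Y ∈ closure (Good K ψ)) (l L : ℕ) :
    ∃ Z, pre Z l = pre Y l ∧ ∃ l', ∀ n < L, ψ (pre Z l') n = some (K Z n).toNat := by
  obtain ⟨Z, hZ1, hZ3⟩ := mem_closure_iff.1 hY _ (isOpen_cyl Y l) rfl
  refine ⟨Z, hZ1, ?_⟩
  exact exists_uniform (Q := fun n l' => ψ (pre Z l') n = some (K Z n).toNat)
    (fun i l l' hl h => hψ.up hl h) L (fun n _ => hZ3 n)

end Vale.Agent.P327
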