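import Vale.Agent.P327.Defs

namespace Vale.Agent.P327

/-- The prefix of length `l` of an infinite binary sequence. -/
def pre (Y : ℕ → Bool) (l : ℕ) : List Bool := (List.range l).map Y

/-- Extension of a finite string by `false`. -/
def ext (t : List Bool) : ℕ → Bool := fun n => t.getD n false

/-- Replace the first `s.length` bits of `Y` by `s`. -/
def glue (s : List Bool) (Y : ℕ → Bool) : ℕ → Bool :=
  fun n => if n < s.length then s.getD n false else Y n

@[simp] theorem pre_length (Y : ℕ → Bool) (l : ℕ) : (pre Y l).length = l := by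
  simp [pre]

theorem pre_getElem? (Y : ℕ → Bool) (l n : ℕ) :
    (pre Y l)[n]? = if n < l then some (Y n) else none := by
  unfold pre
  by_cases h : n < l
  · simp [h]
  · simp [h]

theorem pre_eq_iff (Y Z : ℕ → Bool) (l : ℕ) : pre Y l = pre Z l ↔ ∀ n < l, Y n = Z n := by
  unfold pre
  constructor
  · intro h n hn
    have := List.map_inj_left.1 h n (List.mem_range.2 hn)
    exact this
  · intro h
    apply List.map_congr_left
    intro n hn
    exact h n (List.mem_range.1 hn)

theorem pre_take (Y : ℕ → Bool) (l m : ℕ) : (pre Y l).take m = pre Y (min m l) := by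
  apply List.ext_getElem?
  intro n
  rw [List.getElem?_take, pre_getElem?, pre_getElem?]
  by_cases h1 : n < m <;> by_cases h2 : n < l <;> simp [h1, h2]

theorem pre_prefix (Y : ℕ → Bool) {l m : ℕ} (h : l ≤ m) : pre Y l <+: pre Y m := by
  have : pre Y l = (pre Y m).take l := by rw [pre_take, min_eq_left h]
  rw [this]
  exact List.take_prefix _ _

theorem pre_ext (t : List Bool) : pre (ext t) t.length = t := by
  apply List.ext_getElem?
  intro n
  rw [pre_getElem?]
  by_cases h : n < t.length
  · simp [h, ext, List.getD]
  · simp [h]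

theorem prefix_iff_pre (t : List Bool) (Y : ℕ → Bool) (l : ℕ) :
    t <+: pre Y l ↔ t.length ≤ l ∧ pre Y t.length = t := by
  constructor
  · intro h
    have hl : t.length ≤ l := by simpa using h.length_le
    refine ⟨hl, ?_⟩
    have := List.prefix_iff_eq_take.1 h
    rw [pre_take, min_eq_left hl] at this
    exact this.symm
  · rintro ⟨hl, h⟩
    rw [← h]
    exact pre_prefix Y hl

theorem pre_of_prefix {t t' : List Bool} {Y : ℕ → Bool} (h : t <+: t')
    (h' : pre Y t'.length = t') : pre Y t.length = t := by
  rw [← h'] at h
  exact ((prefix_iff_pre t Y _).1 h).2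

theorem pre_glue_self (s : List Bool) (Y : ℕ → Bool) : pre (glue s Y) s.length = s := by
  apply List.ext_getElem?
  intro n
  rw [pre_getElem?]
  by_cases h : n < s.length
  · simp [h, glue, List.getD]
  · simp [h]

theorem glue_of_le (s : List Bool) (Y : ℕ → Bool) {n : ℕ} (h : s.length ≤ n) :
    glue s Y n = Y n := by
  simp [glue, Nat.not_lt.2 h]

theorem glue_of_lt (s : List Bool) (Y : ℕ → Bool) {n : ℕ} (h : n < s.length) :
    glue s Y n = s[n] := by
  simp [glue, h, List.getD]

theorem append_drop_pre (s : List Bool) (Y : ℕ → Bool) {l : ℕ} (h : s.length ≤ l) :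
    s ++ (pre Y l).drop s.length = pre (glue s Y) l := by
  apply List.ext_getElem?
  intro n
  rw [pre_getElem?]
  by_cases h1 : n < s.length
  · have : n < l := lt_of_lt_of_le h1 h
    rw [List.getElem?_append_left h1]
    simp [this, glue_of_lt s Y h1, h1]
  · have h1' : s.length ≤ n := Nat.not_lt.1 h1
    rw [List.getElem?_append_right h1', List.getElem?_drop, pre_getElem?]
    have : s.length + (n - s.length) = n := by omega
    rw [this, glue_of_le s Y h1']

theorem glue_pre_self (Y : ℕ → Bool) (l : ℕ) : glue (pre Y l) Y = Y := by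
  funext n
  by_cases h : n < l
  · rw [glue_of_lt _ _ (by simpa using h)]
    simp [pre]
  · rw [glue_of_le _ _ (by simpa using h)]

end Vale.Agent.P327
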