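import Vale.Agent.P327.Search

namespace Vale.Agent.P327
open Encodable Topology

theorem tle_of_totIn {X Y : ℕ → Bool} (h : TotIn {chi Y} fun n => (X n).toNat) : TLe X Y :=
  RecursiveIn.iff_nat.2 h

theorem totIn_chi (Y : ℕ → Bool) : TotIn {chi Y} fun n => (Y n).toNat :=
  Nat.RecursiveIn.oracle _ (Set.mem_singleton_iff.2 rfl)

/-- A chain of strings of unbounded length has a limit. -/
theorem exists_limit (y : ℕ → List Bool) (h1 : ∀ j, y j <+: y (j+1)) (h2 : ∀ j, j ≤ (y j).length) :
    ∃ Y : ℕ → Bool, ∀ j, pre Y (y j).length = y j := by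
  have hchain : ∀ i j, i ≤ j → y i <+: y j := by
    intro i j hij
    induction hij with
    | refl => exact List.prefix_refl _
    | step _ ih => exact ih.trans (h1 _)
  refine ⟨fun n => ext (y (n+1)) n, fun j => ?_⟩
  apply List.ext_getElem?
  intro n
  rw [pre_getElem?]
  by_cases hn : n < (y j).length
  · rw [if_pos hn]
    have hn' : n < (y (n+1)).length := h2 (n+1)
    have e : (y (n+1))[n]? = (y j)[n]? := by
      rcases le_total (n+1) j with hle | hle
      · obtain ⟨r, hr⟩ := hchain _ _ hle
        rw [← hr, List.getElem?_append_left hn']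
      · obtain ⟨r, hr⟩ := hchain _ _ hle
        rw [← hr, List.getElem?_append_left hn]
    rw [← e]
    simp [ext, List.getD, hn']
  · rw [if_neg hn]
    simp [Nat.not_lt.1 hn]

theorem coding_of_genComp {D : (ℕ → Bool) → (ℕ → Bool)} (hD : GenComp D) (A : ℕ → Bool) :
    ∃ Y, TLe A Y ∧ TLe (D Y) A ∧ TLe Y A := by
  obtain ⟨E, hE, hspec⟩ := hD
  let s : ℕ → List Bool × Bool := fun j =>
    Nat.rec ([], false) (fun j IH => E (IH.1 ++ [A j]) j) j
  have hs0 : s 0 = ([], false) := rfl
  have hs : ∀ j, s (j+1) = E ((s j).1 ++ [A j]) j := fun j => rfl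
  have hpre : ∀ j, (s j).1 ++ [A j] <+: (s (j+1)).1 := by
    intro j
    rw [hs]
    exact (hspec _ _).1
  have h1 : ∀ j, (s j).1 <+: (s (j+1)).1 := fun j => (List.prefix_append _ _).trans (hpre j)
  have h2 : ∀ j, j ≤ (s j).1.length := by
    intro j
    induction j with
    | zero => exact Nat.zero_le _
    | succ j ih =>
      have := (hpre j).length_le
      simp at this
      omega
  obtain ⟨Y, hY⟩ := exists_limit (fun j => (s j).1) h1 h2
  have hAY : ∀ j, A j = Y (s j).1.length := by
    intro j
    have e1 := hpre j
    rw [← hY (j+1)] at e1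
    obtain ⟨r, hr⟩ := e1
    have e2 : (pre Y (s (j+1)).1.length)[(s j).1.length]? = some (A j) := by
      rw [← hr]
      simp
    rw [pre_getElem?] at e2
    split_ifs at e2
    exact (Option.some.inj e2).symm
  have hDY : ∀ j, D Y j = (s (j+1)).2 := by
    intro j
    have := (hspec ((s j).1 ++ [A j]) j).2 Y
    rw [← hs] at this
    exact this (hY (j+1))
  have hstep : Computable fun p : (List Bool × Bool) × ℕ × ℕ =>
      E (p.1.1 ++ [decide (p.2.2 = 1)]) p.2.1 := by
    apply hE.comp
    · apply (Primrec.list_concat.comp (Primrec.fst.comp Primrec.fst) _).to_comp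
      exact (Primrec.eq.comp (Primrec.snd.comp Primrec.snd) (Primrec.const 1)).decide
    · exact Computable.fst.comp Computable.snd
  have hdec : ∀ b : Bool, decide (b.toNat = 1) = b := by decide
  have hitA : TotIn {chi A} (fun j => encode (s j)) := by
    apply TotIn.iter ([], false) (fun st j ans => E (st.1 ++ [decide (ans = 1)]) j)
      (fun _ j => j) (fun n => (A n).toNat) (totIn_chi A) _ hstep s hs0
    · intro j
      rw [hs, hdec]
    · exact Computable.snd
  refine ⟨Y, ?_, ?_, ?_⟩
  · have hit : TotIn {chi Y} (fun j => encode (s j)) := by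
      apply TotIn.iter ([], false) (fun st j ans => E (st.1 ++ [decide (ans = 1)]) j)
        (fun st _ => st.1.length) (fun n => (Y n).toNat) (totIn_chi Y) _ hstep s hs0
      · intro j
        rw [hs, hdec, hAY]
      · exact (Primrec.list_length.comp (Primrec.fst.comp Primrec.fst)).to_comp
    apply tle_of_totIn
    have hlen : Computable fun n : ℕ =>
        ((decode (α := List Bool × Bool) n).getD ([], false)).1.length :=
      (Primrec.list_length.comp (Primrec.fst.comp
        (Primrec.option_getD.comp Primrec.decode (Primrec.const _)))).to_comp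
    have := (totIn_chi Y).comp ((TotIn.of_computable hlen).comp hit)
    refine this.of_eq fun j => ?_
    simp [hAY j]
  · have hit := hitA
    apply tle_of_totIn
    have hout : Computable fun n : ℕ =>
        ((decode (α := List Bool × Bool) n).getD ([], false)).2.toNat :=
      ((Primrec.dom_bool Bool.toNat).comp (Primrec.snd.comp
        (Primrec.option_getD.comp Primrec.decode (Primrec.const _)))).to_comp
    have := (TotIn.of_computable hout).comp (hit.comp (TotIn.of_computable Computable.succ))
    refine this.of_eq fun j => ?_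
    simp [hDY j]
  · apply tle_of_totIn
    have hYn : ∀ n, Y n = (s (n+1)).1.getD n false := by
      intro n
      have e1 : (pre Y (s (n+1)).1.length)[n]? = (s (n+1)).1[n]? := by rw [hY (n+1)]
      have hn : n < (s (n+1)).1.length := h2 (n+1)
      rw [pre_getElem?, if_pos hn] at e1
      rw [List.getD_eq_getElem?_getD, ← e1]
      rfl
    have hout : Computable fun n : ℕ =>
        ((((decode (α := List Bool × Bool) (Nat.unpair n).2).getD ([], false)).1.getD
          (Nat.unpair n).1 false)).toNat := by
      apply ((Primrec.dom_bool Bool.toNat).comp _).to_comp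
      apply (Primrec.list_getD false).comp
      · exact Primrec.fst.comp (Primrec.option_getD.comp
          (Primrec.decode.comp (Primrec.snd.comp Primrec.unpair)) (Primrec.const _))
      · exact Primrec.fst.comp Primrec.unpair
    have := (TotIn.of_computable hout).comp ((TotIn.of_computable Computable.id).pair
      (hitA.comp (TotIn.of_computable Computable.succ)))
    refine this.of_eq fun j => ?_
    simp [hYn j]

end Vale.Agent.P327
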