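import Mathlib

namespace Vale.Agent.P327

/-- The characteristic function of a subset of `ℕ` (given as `X : ℕ → Bool`), as an oracle. -/
def chi (X : ℕ → Bool) : ℕ →. ℕ := fun n => Part.some (X n).toNat

/-- Turing reducibility between subsets of `ℕ`, via the oracle computability of Mathlib. -/
def TLe (X Y : ℕ → Bool) : Prop := TuringReducible (chi X) (chi Y)

theorem TLe.refl (X : ℕ → Bool) : TLe X X := TuringReducible.refl _

theorem TLe.trans {X Y Z : ℕ → Bool} (h1 : TLe X Y) (h2 : TLe Y Z) : TLe X Z :=
  TuringReducible.trans h1 h2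

instance instIsPreorderTLe : IsPreorder (ℕ → Bool) TLe where
  refl := TLe.refl
  trans _ _ _ := TLe.trans

/-- The Turing degrees: subsets of `ℕ` modulo Turing equivalence. -/
def DT : Type := Antisymmetrization (ℕ → Bool) TLe

/-- The Turing degree of a set. -/
def deg (X : ℕ → Bool) : DT := toAntisymmetrization TLe X

/-- The ordering of the Turing degrees induced by Turing reducibility. -/
instance instPartialOrderDT : PartialOrder DT :=
  @instPartialOrderAntisymmetrization (ℕ → Bool)
    { le := TLe
      lt := fun X Y => TLe X Y ∧ ¬ TLe Y X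
      le_refl := TLe.refl
      le_trans := fun _ _ _ => TLe.trans
      lt_iff_le_not_ge := fun _ _ => Iff.rfl }

theorem deg_le_deg {X Y : ℕ → Bool} : deg X ≤ deg Y ↔ TLe X Y := Iff.rfl

theorem exists_deg (a : DT) : ∃ X, deg X = a := by
  induction a using Quotient.inductionOn with
  | _ X => exact ⟨X, rfl⟩

/-- `F` is uniformly `E₀`-invariant: if `X` and `Y` agree from `a` on, then `F X` and `F Y` agree
from `b` on, where `b` depends only on `a`. -/
def UnifE0 (F : (ℕ → Bool) → (ℕ → Bool)) : Prop :=
  ∀ a : ℕ, ∃ b : ℕ, ∀ X Y : ℕ → Bool, (∀ n, a ≤ n → X n = Y n) → ∀ n, b ≤ n → F X n = F Y n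

end Vale.Agent.P327
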