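import Vale.Agent.P327.Baire

namespace Vale.Agent.P327
open Encodable Topology

theorem primrec_of_list_support {α β : Type} [Primcodable α] [Primcodable β] [DecidableEq α]
    (d : β) (l : List α) : ∀ f : α → β, (∀ a, a ∉ l → f a = d) → Primrec f := by
  induction l with
  | nil =>
    intro f hf
    exact (Primrec.const d).of_eq fun a => (hf a (by simp)).symm
  | cons x l ih =>
    intro f hf
    have h1 : Primrec (Function.update f x d) := by
      apply ih
      intro a ha
      by_cases hax : a = x
      · subst hax; simp
      · rw [Function.update_of_ne hax]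
        exact hf a (by simp [hax, ha])
    have h2 : Primrec fun a => if a = x then f x else Function.update f x d a :=
      Primrec.ite (Primrec.eq.comp Primrec.id (Primrec.const x)) (Primrec.const _) h1
    refine h2.of_eq fun a => ?_
    by_cases hax : a = x
    · subst hax; simp
    · simp [hax]

theorem primrec_of_finite_support {α β : Type} [Primcodable α] [Primcodable β]
    (d : β) {s : Set α} (hs : s.Finite) (f : α → β) (hf : ∀ a, a ∉ s → f a = d) : Primrec f := by
  classical
  apply primrec_of_list_support d hs.toFinset.toList f
  intro a ha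
  apply hf
  simpa using ha

/-- A generic approximation of a map `K` of Cantor space: a primitive recursive, monotone and
sound evaluation on finite strings that converges on a dense set of strings. -/
structure GApprox (K : (ℕ → Bool) → (ℕ → Bool)) (ψ : List Bool → ℕ → Option Bool) : Prop where
  prim : Primrec₂ ψ
  mono : ∀ Y l l' n v, l ≤ l' → ψ (pre Y l) n = some v → ψ (pre Y l') n = some v
  sound : ∀ Y l n v, ψ (pre Y l) n = some v → K Y n = v
  dense : ∀ Y l L, ∃ Z l', pre Z l = pre Y l ∧ l ≤ l' ∧ L ≤ l' ∧ ∀ n < L, (ψ (pre Z l') n).isSome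

theorem primrec_table (K : (ℕ → Bool) → (ℕ → Bool)) (M b : ℕ) :
    Primrec fun q : List Bool × ℕ =>
      if q.1.length ≤ M ∧ q.2 < b then K (ext q.1) q.2 else false := by
  apply primrec_of_finite_support false
    (s := {t : List Bool | t.length ≤ M} ×ˢ {n : ℕ | n < b})
  · exact (List.finite_length_le Bool M).prod (Set.finite_lt_nat b)
  · intro a ha
    have : ¬ (a.1.length ≤ M ∧ a.2 < b) := by simpa [Set.mem_prod] using ha
    rw [if_neg this]

theorem exists_gapprox (K : (ℕ → Bool) → (ℕ → Bool)) (hK : Continuous K) (hE : UnifE0 K)
    (hT : ∀ Y, TLe (K Y) Y) : ∃ ψ, GApprox K ψ := by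
  obtain ⟨ψ0, h0, s, hs⟩ := exists_dense_good K hT
  obtain ⟨b, hb⟩ := hE s.length
  obtain ⟨m0, hm0⟩ := unif_cont K hK b
  set M := max s.length m0 with hM
  have hsM : s.length ≤ M := le_max_left _ _
  let ψ : List Bool → ℕ → Option Bool := fun t n =>
    if t.length < M then none else
      if n < b then
        some (if (t.take M).length ≤ M ∧ n < b then K (ext (t.take M)) n else false)
      else (ψ0 (s ++ t.drop s.length) n).map fun v => decide (v = 1)
  have hunf : ∀ Y l n, ψ (pre Y l) n = if l < M then none else
      if n < b then some (K (ext (pre Y M)) n)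
      else (ψ0 (pre (glue s Y) l) n).map fun v => decide (v = 1) := by
    intro Y l n
    show (if (pre Y l).length < M then none else _) = _
    rw [pre_length]
    by_cases h1 : l < M
    · simp [h1]
    · have h1' : M ≤ l := Nat.not_lt.1 h1
      rw [if_neg h1, if_neg h1, pre_take, min_eq_left h1', append_drop_pre s Y (le_trans hsM h1')]
      by_cases h2 : n < b
      · simp [h2]
      · simp [h2]
  have hglue : ∀ Y, glue s Y ∈ closure (Good K ψ0) := fun Y => hs _ (pre_glue_self s Y)
  refine ⟨ψ, ⟨?_, ?_, ?_, ?_⟩⟩
  · have htake : Primrec fun p : List Bool × ℕ => p.1.take M :=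
      Primrec.list_take.comp (Primrec.const M) Primrec.fst
    apply Primrec.ite
    · exact Primrec.nat_lt.comp (Primrec.list_length.comp Primrec.fst) (Primrec.const M)
    · exact Primrec.const _
    · apply Primrec.ite
      · exact Primrec.nat_lt.comp Primrec.snd (Primrec.const b)
      · exact Primrec.option_some.comp
          ((primrec_table K M b).comp (Primrec.pair htake Primrec.snd))
      · apply Primrec.option_map
        · apply h0.prim.comp _ Primrec.snd
          exact Primrec.list_append.comp (Primrec.const s)
            (Primrec.list_drop.comp (Primrec.const s.length) Primrec.fst)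
        · exact (Primrec.eq.comp Primrec.snd (Primrec.const 1)).decide
  · intro Y l l' n v hl hv
    rw [hunf] at hv ⊢
    by_cases h1 : l < M
    · simp [h1] at hv
    · have h1' : ¬ l' < M := by omega
      rw [if_neg h1] at hv
      rw [if_neg h1']
      by_cases h2 : n < b
      · rw [if_pos h2] at hv ⊢
        exact hv
      · rw [if_neg h2] at hv ⊢
        obtain ⟨w, hw, rfl⟩ := Option.map_eq_some_iff.1 hv
        rw [h0.up hl hw]
        rfl
  · intro Y l n v hv
    rw [hunf] at hv
    by_cases h1 : l < M
    · simp [h1] at hv
    · rw [if_neg h1] at hv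
      by_cases h2 : n < b
      · rw [if_pos h2] at hv
        have e1 : pre (ext (pre Y M)) M = pre Y M := by
          have := pre_ext (pre Y M)
          rwa [pre_length] at this
        have e2 := hm0 _ _ (pre_eq_of_le (le_max_right s.length m0) e1)
        rw [pre_eq_iff] at e2
        rw [← e2 n h2]
        exact Option.some.inj hv
      · rw [if_neg h2] at hv
        obtain ⟨w, hw, rfl⟩ := Option.map_eq_some_iff.1 hv
        have e1 := local_sound hK h0 (hglue Y) hw
        have e2 : K (glue s Y) n = K Y n :=
          hb _ _ (fun k hk => glue_of_le s Y hk) n (Nat.not_lt.1 h2)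
        rw [e2] at e1
        rw [← e1]
        cases K Y n <;> rfl
  · intro Y l L
    obtain ⟨Z, hZ, l1, hl1⟩ := local_dense h0 (hglue Y) (max l M) L
    have hZs : pre Z s.length = s := by
      have := pre_eq_of_le (le_trans hsM (le_max_right l M)) hZ
      rw [this, pre_glue_self]
    have hZ' := (pre_eq_iff _ _ _).1 hZ
    have hZs' := (pre_eq_iff _ _ _).1 (hZs.trans (pre_glue_self s Y).symm)
    let W := glue (pre Y s.length) Z
    have hW1 : ∀ n, n < s.length → W n = Y n := by
      intro n hn
      show glue (pre Y s.length) Z n = Y n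
      rw [glue_of_lt _ _ (by simpa using hn)]
      simp [pre]
    have hW2 : ∀ n, s.length ≤ n → W n = Z n := by
      intro n hn
      exact glue_of_le _ _ (by simpa using hn)
    have hgW : glue s W = Z := by
      funext n
      by_cases hn : n < s.length
      · rw [hZs' n hn, glue_of_lt _ _ hn, glue_of_lt _ _ hn]
      · rw [glue_of_le _ _ (Nat.not_lt.1 hn), hW2 n (Nat.not_lt.1 hn)]
    refine ⟨W, max (max l M) (max l1 L), ?_, ?_, ?_, ?_⟩
    · rw [pre_eq_iff]
      intro n hn
      by_cases hn' : n < s.length
      · exact hW1 n hn'
      · rw [hW2 n (Nat.not_lt.1 hn'), hZ' n (lt_of_lt_of_le hn (le_max_left _ _)),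
          glue_of_le _ _ (Nat.not_lt.1 hn')]
    · exact le_trans (le_max_left _ _) (le_max_left _ _)
    · exact le_trans (le_max_right _ _) (le_max_right _ _)
    · intro n hn
      rw [hunf]
      have h1 : ¬ max (max l M) (max l1 L) < M :=
        Nat.not_lt.2 (le_trans (le_max_right _ _) (le_max_left _ _))
      rw [if_neg h1]
      by_cases h2 : n < b
      · rw [if_pos h2]; rfl
      · rw [if_neg h2, hgW,
          h0.up (le_trans (le_max_left _ _) (le_max_right _ _)) (hl1 n hn)]
        rfl

end Vale.Agent.P327
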