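import Vale.Agent.P327.Global

namespace Vale.Agent.P327
open Encodable Topology

/-- Number of initial output bits decided by the string `t`. -/
def glen (ψ : List Bool → ℕ → Option Bool) (t : List Bool) : ℕ :=
  Nat.findGreatest (fun L => ∀ n < L, (ψ t n).isSome = true) t.length

/-- The string map associated with a generic approximation. -/
def gmap (ψ : List Bool → ℕ → Option Bool) (t : List Bool) : List Bool :=
  (List.range (glen ψ t)).map fun n => (ψ t n).getD false

theorem glen_spec (ψ : List Bool → ℕ → Option Bool) (t : List Bool) :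
    ∀ n < glen ψ t, (ψ t n).isSome = true :=
  @Nat.findGreatest_spec 0 (fun L => ∀ n < L, (ψ t n).isSome = true) _ t.length (Nat.zero_le _)
    (by intro i hi; omega)

theorem glen_le (ψ : List Bool → ℕ → Option Bool) (t : List Bool) : glen ψ t ≤ t.length :=
  Nat.findGreatest_le _

theorem le_glen (ψ : List Bool → ℕ → Option Bool) (t : List Bool) {L : ℕ} (h1 : L ≤ t.length)
    (h2 : ∀ n < L, (ψ t n).isSome = true) : L ≤ glen ψ t :=
  Nat.le_findGreatest h1 h2

theorem primrec_glen {ψ : List Bool → ℕ → Option Bool} (hψ : Primrec₂ ψ) : Primrec (glen ψ) := by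
  have hR : PrimrecRel (fun (n : ℕ) (t : List Bool) => (ψ t n).isSome = true) :=
    Primrec.eq.comp₂ (Primrec.option_isSome.comp₂ hψ.swap) (Primrec₂.const true)
  exact Primrec.nat_findGreatest Primrec.list_length (primrecRel_forall_lt hR)

theorem primrec_gmap {ψ : List Bool → ℕ → Option Bool} (hψ : Primrec₂ ψ) : Primrec (gmap ψ) := by
  apply Primrec.list_map (Primrec.list_range.comp (primrec_glen hψ))
  exact Primrec.option_getD.comp₂ hψ (Primrec₂.const false)

variable {K : (ℕ → Bool) → (ℕ → Bool)} {ψ : List Bool → ℕ → Option Bool}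

theorem GApprox.gmap_pre (h : GApprox K ψ) (Y : ℕ → Bool) (l : ℕ) :
    gmap ψ (pre Y l) = pre (K Y) (glen ψ (pre Y l)) := by
  unfold gmap pre
  apply List.map_congr_left
  intro n hn
  have hn' := glen_spec ψ _ n (List.mem_range.1 hn)
  obtain ⟨v, hv⟩ := Option.isSome_iff_exists.1 hn'
  have := h.sound Y l n v hv
  have hv' : ψ (List.map Y (List.range l)) n = some v := hv
  rw [hv', this]
  rfl

theorem GApprox.glen_mono (h : GApprox K ψ) (Y : ℕ → Bool) {l l' : ℕ} (hl : l ≤ l') :
    glen ψ (pre Y l) ≤ glen ψ (pre Y l') := by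
  apply le_glen
  · exact le_trans (glen_le _ _) (by simpa using hl)
  · intro n hn
    obtain ⟨v, hv⟩ := Option.isSome_iff_exists.1 (glen_spec ψ _ n hn)
    rw [h.mono Y l l' n v hl hv]
    rfl

theorem GApprox.iter_pre (h : GApprox K ψ) (j : ℕ) : ∀ (Y : ℕ → Bool) (l : ℕ),
    (gmap ψ)^[j] (pre Y l) = pre (K^[j] Y) ((gmap ψ)^[j] (pre Y l)).length := by
  induction j with
  | zero => intro Y l; simp
  | succ j ih =>
    intro Y l
    rw [Function.iterate_succ_apply, Function.iterate_succ_apply, h.gmap_pre]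
    exact ih (K Y) _

theorem GApprox.iter_mono (h : GApprox K ψ) (j : ℕ) : ∀ (Y : ℕ → Bool) {l l' : ℕ}, l ≤ l' →
    ((gmap ψ)^[j] (pre Y l)).length ≤ ((gmap ψ)^[j] (pre Y l')).length := by
  induction j with
  | zero => intro Y l l' hl; simpa using hl
  | succ j ih =>
    intro Y l l' hl
    rw [Function.iterate_succ_apply, Function.iterate_succ_apply, h.gmap_pre, h.gmap_pre]
    exact ih (K Y) (h.glen_mono Y hl)

/-- Every cylinder is mapped by `K` onto a set containing a cylinder. -/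
def OpenLike (K : (ℕ → Bool) → (ℕ → Bool)) : Prop :=
  ∀ (Y : ℕ → Bool) (l : ℕ), ∃ (W : ℕ → Bool) (m : ℕ),
    ∀ Z, pre Z m = pre W m → ∃ Y', pre Y' l = pre Y l ∧ K Y' = Z

theorem GApprox.iter_dense (h : GApprox K ψ) (hK : Continuous K) (hO : OpenLike K) (j : ℕ) :
    ∀ (Y : ℕ → Bool) (l L : ℕ), ∃ (Z : ℕ → Bool) (l' : ℕ), pre Z l = pre Y l ∧ l ≤ l' ∧
      L ≤ ((gmap ψ)^[j] (pre Z l')).length := by
  induction j with
  | zero =>
    intro Y l L
    exact ⟨Y, max l L, rfl, le_max_left _ _, by simp⟩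
  | succ j ih =>
    intro Y l L
    obtain ⟨W, m, hW⟩ := hO Y l
    obtain ⟨Z, m', hZ1, hZ2, hZ3⟩ := ih W m L
    obtain ⟨Y', hY1, hY2⟩ := hW Z hZ1
    obtain ⟨l1, hl1⟩ := unif_cont K hK m'
    obtain ⟨Z2, l2, h1, h2, h3, h4⟩ := h.dense Y' (max l l1) m'
    refine ⟨Z2, l2, ?_, le_trans (le_max_left _ _) h2, ?_⟩
    · rw [pre_eq_of_le (le_max_left _ _) h1, hY1]
    · rw [Function.iterate_succ_apply, h.gmap_pre]
      have e1 : pre (K Z2) m' = pre Z m' := by
        rw [hl1 Z2 Y' (pre_eq_of_le (le_max_right _ _) h1), hY2]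
      have e2 : m' ≤ glen ψ (pre Z2 l2) := le_glen _ _ (by simpa using h3) h4
      have e3 := h.iter_mono j (K Z2) e2
      rw [e1] at e3
      exact le_trans hZ3 e3

end Vale.Agent.P327
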