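import Vale.Agent.P327.Coding

namespace Vale.Agent.P327
open Encodable Topology

/-- The shift on Cantor space. -/
def shift (X : ℕ → Bool) : ℕ → Bool := fun n => X (n+1)

theorem continuous_shift : Continuous shift :=
  continuous_pi fun n => continuous_apply (n+1)

theorem unifE0_shift : UnifE0 shift := by
  intro a
  exact ⟨a, fun X Y h n hn => h (n+1) (Nat.le_succ_of_le hn)⟩

theorem UnifE0.comp {F G : (ℕ → Bool) → (ℕ → Bool)} (hF : UnifE0 F) (hG : UnifE0 G) :
    UnifE0 (fun X => F (G X)) := by
  intro a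
  obtain ⟨b, hb⟩ := hG a
  obtain ⟨c, hc⟩ := hF b
  exact ⟨c, fun X Y h => hc _ _ (hb X Y h)⟩

theorem tle_shift (X : ℕ → Bool) : TLe (shift X) X := by
  apply tle_of_totIn
  exact (totIn_chi X).comp (TotIn.of_computable Computable.succ)

theorem shift_iterate (j : ℕ) : ∀ X : ℕ → Bool, (shift^[j] X) 0 = X j := by
  induction j with
  | zero => intro X; rfl
  | succ j ih =>
    intro X
    rw [Function.iterate_succ_apply, ih]
    show X (j + 1) = X (j + 1)
    rfl

/-- Prepending a bit. -/
def consB (b : Bool) (X : ℕ → Bool) : ℕ → Bool := fun n => Nat.casesOn n b X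

theorem shift_consB (b : Bool) (X : ℕ → Bool) : shift (consB b X) = X := rfl

theorem openLike_conj (F : (ℕ → Bool) ≃ₜ (ℕ → Bool)) :
    OpenLike (fun Y => F (shift (F.symm Y))) := by
  intro Y l
  have hU : IsOpen (F ⁻¹' {Y' | pre Y' l = pre Y l}) := (isOpen_cyl Y l).preimage F.continuous
  obtain ⟨l1, hl1⟩ := exists_cyl_subset hU (Y := F.symm Y) (by simp)
  have hV : IsOpen (F.symm ⁻¹' {X' | pre X' l1 = pre (shift (F.symm Y)) l1}) :=
    (isOpen_cyl _ l1).preimage F.symm.continuous
  obtain ⟨m, hm⟩ := exists_cyl_subset hV (Y := F (shift (F.symm Y))) (by simp)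
  refine ⟨F (shift (F.symm Y)), m, fun Z hZ => ?_⟩
  have h1 : pre (F.symm Z) l1 = pre (shift (F.symm Y)) l1 := hm Z hZ
  refine ⟨F (consB (F.symm Y 0) (F.symm Z)), ?_, ?_⟩
  · apply hl1
    rw [pre_eq_iff] at h1 ⊢
    intro n hn
    cases n with
    | zero => rfl
    | succ n => exact h1 n (by omega)
  · simp [shift_consB]

theorem conj_iterate (F : (ℕ → Bool) ≃ₜ (ℕ → Bool)) (j : ℕ) : ∀ Y : ℕ → Bool,
    F.symm ((fun Y => F (shift (F.symm Y)))^[j] Y) = shift^[j] (F.symm Y) := by
  induction j with
  | zero => intro Y; rfl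
  | succ j ih =>
    intro Y
    rw [Function.iterate_succ_apply, Function.iterate_succ_apply, ih]
    simp

theorem genComp_symm (F : (ℕ → Bool) ≃ₜ (ℕ → Bool)) (hF : UnifE0 F) (hF' : UnifE0 F.symm)
    (hT : ∀ X, TLe (F (shift X)) (F X)) : GenComp F.symm := by
  have hK : Continuous (fun Y => F (shift (F.symm Y))) :=
    F.continuous.comp (continuous_shift.comp F.symm.continuous)
  have hE : UnifE0 (fun Y => F (shift (F.symm Y))) := hF.comp (unifE0_shift.comp hF')
  have hT' : ∀ Y, TLe (F (shift (F.symm Y))) Y := by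
    intro Y
    have := hT (F.symm Y)
    simpa using this
  obtain ⟨ψ, hψ⟩ := exists_gapprox _ hK hE hT'
  apply genComp_of_gapprox hψ hK (openLike_conj F) (fun Y => F.symm Y 0)
    ((continuous_apply 0).comp F.symm.continuous)
  intro Y j
  rw [conj_iterate, shift_iterate]

/-- Main theorem, on the level of sets: a bi-uniformly `E₀`-invariant homeomorphism of Cantor space
which preserves and reflects Turing reducibility maps every set to a Turing equivalent set. -/
theorem main_sets (F : (ℕ → Bool) ≃ₜ (ℕ → Bool)) (hF : UnifE0 F) (hF' : UnifE0 F.symm)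
    (hmono : ∀ X Y, TLe X Y ↔ TLe (F X) (F Y)) (A : ℕ → Bool) : TLe A (F A) ∧ TLe (F A) A := by
  have key1 : ∀ A, TLe A (F A) := by
    intro A
    have hg := genComp_symm F hF hF' (fun X => (hmono _ _).1 (tle_shift X))
    obtain ⟨Y, h1, h2, _⟩ := coding_of_genComp hg A
    have h3 := (hmono _ _).1 h2
    rw [F.apply_symm_apply] at h3
    exact h1.trans h3
  have key2 : ∀ B, TLe B (F.symm B) := by
    intro B
    have hg := genComp_symm F.symm hF' (by simpa using hF) (fun X => by
      apply (hmono _ _).2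
      simpa using tle_shift X)
    obtain ⟨X, h1, h2, _⟩ := coding_of_genComp hg B
    have h2' : TLe (F X) B := by simpa using h2
    have h3 : TLe X (F.symm B) := by
      apply (hmono _ _).2
      simpa using h2'
    exact h1.trans h3
  refine ⟨key1 A, ?_⟩
  have := key2 (F A)
  simpa using this

/-- Main theorem: an automorphism of the Turing degrees induced by a bi-uniformly `E₀`-invariant
homeomorphism of Cantor space is the identity. -/
theorem main_degrees (F : (ℕ → Bool) ≃ₜ (ℕ → Bool)) (hF : UnifE0 F) (hF' : UnifE0 F.symm)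
    (p : DT ≃o DT) (hp : ∀ X, p (deg X) = deg (F X)) (a : DT) : p a = a := by
  obtain ⟨A, rfl⟩ := exists_deg a
  have hmono : ∀ X Y, TLe X Y ↔ TLe (F X) (F Y) := by
    intro X Y
    rw [← deg_le_deg, ← deg_le_deg, ← hp, ← hp, p.le_iff_le]
  obtain ⟨h1, h2⟩ := main_sets F hF hF' hmono A
  rw [hp]
  exact le_antisymm (deg_le_deg.2 h2) (deg_le_deg.2 h1)

theorem tle_of_shift (X : ℕ → Bool) : TLe X (shift X) := by
  apply tle_of_totIn
  have hG : Computable fun n : ℕ =>
      if (Nat.unpair n).1 = 0 then (X 0).toNat else (Nat.unpair n).2 := by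
    apply (Primrec.ite _ (Primrec.const _) (Primrec.snd.comp Primrec.unpair)).to_comp
    exact Primrec.eq.comp (Primrec.fst.comp Primrec.unpair) (Primrec.const 0)
  have := (TotIn.of_computable hG).comp ((TotIn.of_computable Computable.id).pair
    ((totIn_chi (shift X)).comp (TotIn.of_computable Primrec.pred.to_comp)))
  refine this.of_eq fun n => ?_
  cases n with
  | zero => simp
  | succ n => simp [shift]

/-- Turing equivalence. -/
def TEq (X Y : ℕ → Bool) : Prop := TLe X Y ∧ TLe Y X

/-- Stronger form: it suffices that `F` preserves and reflects Turing equivalence. -/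
theorem main_invariant (F : (ℕ → Bool) ≃ₜ (ℕ → Bool)) (hF : UnifE0 F) (hF' : UnifE0 F.symm)
    (hinv : ∀ X Y, TEq X Y ↔ TEq (F X) (F Y)) (A : ℕ → Bool) : TEq (F A) A := by
  have key1 : ∀ A, TLe (F.symm A) A := by
    intro A
    have hg := genComp_symm F hF hF'
      (fun X => ((hinv _ _).1 ⟨tle_shift X, tle_of_shift X⟩).1)
    obtain ⟨Y, h1, h2, h3⟩ := coding_of_genComp hg A
    have h4 : TEq (F.symm A) (F.symm Y) := by
      apply (hinv _ _).2
      rw [F.apply_symm_apply, F.apply_symm_apply]
      exact ⟨h1, h3⟩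
    exact h4.1.trans h2
  have key2 : ∀ A, TLe (F A) A := by
    intro A
    have hg := genComp_symm F.symm hF' (by simpa using hF) (fun Y => by
      have : TEq (F.symm (shift Y)) (F.symm Y) := by
        apply (hinv _ _).2
        rw [F.apply_symm_apply, F.apply_symm_apply]
        exact ⟨tle_shift Y, tle_of_shift Y⟩
      exact this.1)
    obtain ⟨X, h1, h2, h3⟩ := coding_of_genComp hg A
    have h2' : TLe (F X) A := by simpa using h2
    have h4 : TEq (F A) (F X) := (hinv _ _).1 ⟨h1, h3⟩
    exact h4.1.trans h2'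
  refine ⟨key2 A, ?_⟩
  have := key1 (F A)
  simpa using this

theorem deg_eq_deg {X Y : ℕ → Bool} : deg X = deg Y ↔ TEq X Y := by
  rw [le_antisymm_iff, deg_le_deg, deg_le_deg]
  rfl

/-- Any injective self-map of the set of Turing degrees (no order preservation assumed) induced by
a bi-uniformly `E₀`-invariant homeomorphism of Cantor space is the identity. -/
theorem main_injective (F : (ℕ → Bool) ≃ₜ (ℕ → Bool)) (hF : UnifE0 F) (hF' : UnifE0 F.symm)
    (p : DT → DT) (hinj : Function.Injective p) (hp : ∀ X, p (deg X) = deg (F X)) (a : DT) :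
    p a = a := by
  obtain ⟨A, rfl⟩ := exists_deg a
  have hinv : ∀ X Y, TEq X Y ↔ TEq (F X) (F Y) := by
    intro X Y
    rw [← deg_eq_deg, ← deg_eq_deg, ← hp, ← hp, hinj.eq_iff]
  rw [hp]
  exact deg_eq_deg.2 (main_invariant F hF hF' hinv A)

end Vale.Agent.P327
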