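import Vale.Agent.P327.Main

namespace Vale.Agent.P327
open Encodable Topology

/-- The homeomorphism of Cantor space induced by a permutation of `ℕ`. -/
def permHomeo (f : Equiv.Perm ℕ) : (ℕ → Bool) ≃ₜ (ℕ → Bool) where
  toFun X := fun n => X (f n)
  invFun Y := fun n => Y (f.symm n)
  left_inv X := by funext n; simp
  right_inv Y := by funext n; simp
  continuous_toFun := continuous_pi fun n => continuous_apply (f n)
  continuous_invFun := continuous_pi fun n => continuous_apply (f.symm n)

theorem permHomeo_apply (f : Equiv.Perm ℕ) (X : ℕ → Bool) (n : ℕ) :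
    permHomeo f X n = X (f n) := rfl

theorem permHomeo_symm_apply (f : Equiv.Perm ℕ) (Y : ℕ → Bool) (n : ℕ) :
    (permHomeo f).symm Y n = Y (f.symm n) := rfl

theorem unifE0_perm (f : Equiv.Perm ℕ) : UnifE0 (fun X n => X (f n)) := by
  intro a
  refine ⟨(Finset.range a).sup f.symm + 1, fun X Y h n hn => h (f n) ?_⟩
  by_contra hlt
  have h1 : f n ∈ Finset.range a := Finset.mem_range.2 (Nat.not_le.1 hlt)
  have h2 : f.symm (f n) ≤ (Finset.range a).sup f.symm := Finset.le_sup h1
  simp at h2
  omega

/-- The string of length `L` whose only `true` entry is at position `m`. -/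
def indStr (L m : ℕ) : List Bool := (List.range L).map fun i => decide (i = m)

theorem primrec_indStr : Primrec₂ indStr := by
  apply Primrec.list_map (Primrec.list_range.comp Primrec.fst)
  exact (Primrec.eq.comp Primrec.snd (Primrec.snd.comp Primrec.fst)).decide

theorem computable_of_rfind {g : ℕ → ℕ} {p : ℕ → ℕ → Bool} (hp : Computable₂ p)
    (h1 : ∀ j, p j (g j) = true) (h2 : ∀ j m, m < g j → p j m = false) : Computable g := by
  have hpart : Partrec fun j => Nat.rfind fun m => Part.some (p j m) :=
    Partrec.rfind (p := fun j m => Part.some (p j m)) hp.partrec₂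
  apply hpart.of_eq_tot
  intro j
  apply Nat.mem_rfind.2
  refine ⟨?_, fun {m} hm => ?_⟩
  · show true ∈ Part.some (p j (g j))
    rw [h1 j]; exact Part.mem_some _
  · show false ∈ Part.some (p j m)
    rw [h2 j m hm]; exact Part.mem_some _

theorem computable_symm_of_genComp (f : Equiv.Perm ℕ) (h : GenComp (permHomeo f).symm) :
    Computable f.symm := by
  obtain ⟨E, hE, hspec⟩ := h
  have hlt : ∀ t j, f.symm j < (E t j).1.length := by
    intro t j
    by_contra hge
    have hge' : (E t j).1.length ≤ f.symm j := Nat.not_lt.1 hge
    have e1 := (hspec t j).2 (glue (E t j).1 (fun _ => true)) (pre_glue_self _ _)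
    have e2 := (hspec t j).2 (glue (E t j).1 (fun _ => false)) (pre_glue_self _ _)
    rw [permHomeo_symm_apply, glue_of_le _ _ hge'] at e1 e2
    rw [← e1] at e2
    exact absurd e2 (by simp)
  have hval : ∀ j m, (E (indStr (E [] j).1.length m) j).2 = decide (f.symm j = m) := by
    intro j m
    set L := (E [] j).1.length with hL
    have hj : f.symm j < L := hlt [] j
    obtain ⟨hp, hs⟩ := hspec (indStr L m) j
    have e1 := hs (ext (E (indStr L m) j).1) (pre_ext _)
    rw [permHomeo_symm_apply] at e1
    rw [← e1]
    obtain ⟨r, hr⟩ := hp
    have hlen : (indStr L m).length = L := by simp [indStr]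
    show ((E (indStr L m) j).1).getD (f.symm j) false = _
    rw [← hr, List.getD_eq_getElem?_getD, List.getElem?_append_left (by rw [hlen]; exact hj)]
    simp [indStr, hj]
  apply computable_of_rfind (p := fun j m => (E (indStr (E [] j).1.length m) j).2)
  · apply Computable.snd.comp
    apply hE.comp _ Computable.fst
    apply primrec_indStr.to_comp.comp _ Computable.snd
    apply Computable.list_length.comp
    apply Computable.fst.comp
    exact hE.comp (Computable.const []) Computable.fst
  · intro j
    simp [hval]
  · intro j m hm
    rw [hval]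
    simp
    omega

theorem computable_of_computable_symm (f : Equiv.Perm ℕ) (h : Computable f.symm) :
    Computable f := by
  apply computable_of_rfind (p := fun n j => decide (f.symm j = n))
  · exact (Primrec.eq.decide.to_comp).comp (h.comp Computable.snd) Computable.fst
  · intro n; simp
  · intro n j hj
    simp only [decide_eq_false_iff_not]
    intro e
    rw [← e] at hj
    simp at hj

/-- A permutation `f` of `ℕ` such that `X ↦ X ∘ f` preserves Turing equivalence is computable. -/
theorem perm_computable (f : Equiv.Perm ℕ)
    (hinv : ∀ X Y : ℕ → Bool, TEq X Y → TEq (fun n => X (f n)) (fun n => Y (f n))) :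
    Computable f := by
  apply computable_of_computable_symm
  apply computable_symm_of_genComp
  apply genComp_symm (permHomeo f) (unifE0_perm f) (unifE0_perm f.symm)
  intro X
  exact (hinv _ _ ⟨tle_shift X, tle_of_shift X⟩).1

theorem tle_comp_of_computable {f : ℕ → ℕ} (hf : Computable f) (X : ℕ → Bool) :
    TLe (fun n => X (f n)) X := by
  apply tle_of_totIn
  exact (totIn_chi X).comp (TotIn.of_computable hf)

/-- Characterisation: `X ↦ X ∘ f` respects Turing equivalence iff `f` is computable. -/
theorem perm_computable_iff (f : Equiv.Perm ℕ) :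
    (∀ X Y : ℕ → Bool, TLe X Y → TLe Y X → TLe (fun n => X (f n)) (fun n => Y (f n))) ↔
      Computable f := by
  constructor
  · intro h
    exact perm_computable f fun X Y hXY => ⟨h X Y hXY.1 hXY.2, h Y X hXY.2 hXY.1⟩
  · intro hf X Y hXY _
    have hf' : Computable f.symm := computable_of_computable_symm f.symm (by simpa using hf)
    have h1 : TLe (fun n => X (f n)) X := tle_comp_of_computable hf X
    have h2 : TLe Y (fun n => Y (f n)) := by
      have := tle_comp_of_computable hf' (fun n => Y (f n))
      simpa using this
    exact (h1.trans hXY).trans h2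

end Vale.Agent.P327
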