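import Vale.Agent.P327.Defs

namespace Vale.Agent.P327
open Encodable

/-- Total functions on `ℕ` computable in the oracle set `O`. -/
def TotIn (O : Set (ℕ →. ℕ)) (f : ℕ → ℕ) : Prop := Nat.RecursiveIn O (fun n => Part.some (f n))

variable {O : Set (ℕ →. ℕ)} {f g h : ℕ → ℕ}

theorem TotIn.of_computable (hf : Computable f) : TotIn O f :=
  Nat.Partrec.recursiveIn (Partrec.nat_iff.1 hf)

theorem TotIn.comp (hf : TotIn O f) (hg : TotIn O g) : TotIn O (fun n => f (g n)) := by
  have := Nat.RecursiveIn.comp hf hg
  refine this.of_eq fun n => ?_
  simp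

theorem TotIn.pair (hf : TotIn O f) (hg : TotIn O g) : TotIn O (fun n => Nat.pair (f n) (g n)) := by
  have := Nat.RecursiveIn.pair hf hg
  refine this.of_eq fun n => ?_
  simp [Seq.seq]

theorem TotIn.prec (hf : TotIn O f) (hh : TotIn O h) :
    TotIn O (fun p => Nat.rec (f (Nat.unpair p).1)
      (fun y IH => h (Nat.pair (Nat.unpair p).1 (Nat.pair y IH))) (Nat.unpair p).2) := by
  have := Nat.RecursiveIn.prec hf hh
  refine this.of_eq fun p => ?_
  simp only []
  generalize (Nat.unpair p).2 = m
  induction m with
  | zero => rfl
  | succ m ih =>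
    simp only [ih]
    simp

theorem TotIn.of_eq (hf : TotIn O f) (H : ∀ n, f n = g n) : TotIn O g := by
  have : f = g := funext H
  exact this ▸ hf

/-- Iteration of a computable step function that may query the oracle once per step. -/
theorem TotIn.iter {α : Type} [Primcodable α] (init : α) (step : α → ℕ → ℕ → α) (q : α → ℕ → ℕ)
    (o : ℕ → ℕ) (ho : TotIn O o) (hq : Computable₂ q)
    (hstep : Computable fun p : α × ℕ × ℕ => step p.1 p.2.1 p.2.2)
    (s : ℕ → α) (hs0 : s 0 = init) (hs : ∀ j, s (j+1) = step (s j) j (o (q (s j) j))) :
    TotIn O (fun j => encode (s j)) := by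
  let st : ℕ → α := fun n => (decode (α := α) (Nat.unpair (Nat.unpair n).2).2).getD init
  let ix : ℕ → ℕ := fun n => (Nat.unpair (Nat.unpair n).2).1
  have hst : Computable st :=
    Computable.option_getD (Computable.decode.comp (Computable.snd.comp (Computable.unpair.comp
      (Computable.snd.comp Computable.unpair)))) (Computable.const init)
  have hix : Computable ix :=
    Computable.fst.comp (Computable.unpair.comp (Computable.snd.comp Computable.unpair))
  have hQ : Computable fun n => q (st n) (ix n) := hq.comp hst hix
  have hR : Computable fun n => encode (step (st (Nat.unpair n).1) (ix (Nat.unpair n).1)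
      (Nat.unpair n).2) := by
    apply Computable.encode.comp
    exact hstep.comp (Computable.pair (hst.comp (Computable.fst.comp Computable.unpair))
      (Computable.pair (hix.comp (Computable.fst.comp Computable.unpair))
        (Computable.snd.comp Computable.unpair)))
  have hh : TotIn O fun n => encode (step (st n) (ix n) (o (q (st n) (ix n)))) := by
    have := (TotIn.of_computable (O := O) hR).comp
      ((TotIn.of_computable (O := O) Computable.id).pair (ho.comp (TotIn.of_computable hQ)))
    refine this.of_eq fun n => ?_
    simp
  have hp := (TotIn.of_computable (O := O) (Computable.const (encode init))).prec hh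
  have hp' := hp.comp (TotIn.of_computable (O := O)
    (Primrec₂.natPair.comp (Primrec.const 0) Primrec.id).to_comp)
  have key : ∀ j : ℕ, (Nat.rec (encode init) (fun y IH =>
      encode (step (st (Nat.pair 0 (Nat.pair y IH))) (ix (Nat.pair 0 (Nat.pair y IH)))
        (o (q (st (Nat.pair 0 (Nat.pair y IH))) (ix (Nat.pair 0 (Nat.pair y IH))))))) j : ℕ) =
      encode (s j) := by
    intro j
    induction j with
    | zero => simp [hs0]
    | succ j ih =>
      simp only [ih, hs]
      simp [st, ix]
  refine hp'.of_eq fun j => ?_
  simp only [Nat.unpair_pair, id]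
  exact key j

end Vale.Agent.P327
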