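import Vale.Agent.P327.Iter
import Vale.Agent.P327.Rec

namespace Vale.Agent.P327
open Encodable Topology

/-- `D` is generically computable: a computable function extends any string `t` to a string
deciding the `j`-th bit of `D`. -/
def GenComp (D : (ℕ → Bool) → (ℕ → Bool)) : Prop :=
  ∃ E : List Bool → ℕ → List Bool × Bool, Computable₂ E ∧
    ∀ t j, t <+: (E t j).1 ∧ ∀ Y, pre Y (E t j).1.length = (E t j).1 → D Y j = (E t j).2

theorem primrec_tab (g : (ℕ → Bool) → Bool) (N : ℕ) :
    Primrec fun r : List Bool => g (ext (r.take N)) := by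
  have h1 : Primrec fun r : List Bool => if r.length ≤ N then g (ext r) else false := by
    apply primrec_of_finite_support false (s := {t : List Bool | t.length ≤ N})
    · exact List.finite_length_le Bool N
    · intro a ha
      have : ¬ a.length ≤ N := ha
      rw [if_neg this]
  have h2 := h1.comp (Primrec.list_take.comp (Primrec.const N) Primrec.id)
  refine h2.of_eq fun r => ?_
  simp

theorem genComp_of_gapprox {K D : (ℕ → Bool) → (ℕ → Bool)} {ψ : List Bool → ℕ → Option Bool}
    (h : GApprox K ψ) (hK : Continuous K) (hO : OpenLike K) (g : (ℕ → Bool) → Bool)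
    (hg : Continuous g) (hD : ∀ Y j, D Y j = g (K^[j] Y)) : GenComp D := by
  obtain ⟨N, hN⟩ := unif_loc_const g hg
  let it : List Bool × ℕ → List Bool → List Bool := fun a s => (gmap ψ)^[a.2] (a.1 ++ s)
  have hit : Primrec₂ it := by
    apply Primrec.nat_iterate (f := fun p : (List Bool × ℕ) × List Bool => p.1.2)
      (g := fun p : (List Bool × ℕ) × List Bool => p.1.1 ++ p.2)
      (h := fun _ r => gmap ψ r)
    · exact Primrec.snd.comp Primrec.fst
    · exact Primrec.list_append.comp (Primrec.fst.comp Primrec.fst) Primrec.snd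
    · exact (primrec_gmap h.prim).comp Primrec.snd
  let f : List Bool × ℕ → ℕ → Option (List Bool × Bool) := fun a k =>
    (decode (α := List Bool) k).bind fun s =>
      if N ≤ (it a s).length then some (a.1 ++ s, g (ext ((it a s).take N))) else none
  have hf : Primrec₂ f := by
    apply Primrec.option_bind (Primrec.decode.comp Primrec.snd)
    have hit' : Primrec fun p : ((List Bool × ℕ) × ℕ) × List Bool => it p.1.1 p.2 :=
      hit.comp (Primrec.fst.comp Primrec.fst) Primrec.snd
    apply Primrec.ite
    · exact Primrec.nat_le.comp (Primrec.const N) (Primrec.list_length.comp hit')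
    · apply Primrec.option_some.comp
      apply Primrec.pair
      · exact Primrec.list_append.comp (Primrec.fst.comp (Primrec.fst.comp Primrec.fst))
          Primrec.snd
      · exact (primrec_tab g N).comp hit'
    · exact Primrec.const _
  have hdom : ∀ a, (Nat.rfindOpt (f a)).Dom := by
    intro a
    rw [Nat.rfindOpt_dom]
    obtain ⟨Z, l', h1, h2, h3⟩ := h.iter_dense hK hO a.2 (ext a.1) a.1.length N
    rw [pre_ext] at h1
    have hp : a.1 <+: pre Z l' := (prefix_iff_pre _ _ _).2 ⟨h2, h1⟩
    obtain ⟨s, hs⟩ := hp
    refine ⟨encode s, (a.1 ++ s, g (ext ((it a s).take N))), ?_⟩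
    have h3' : N ≤ (it a s).length := by
      show N ≤ ((gmap ψ)^[a.2] (a.1 ++ s)).length
      rw [hs]; exact h3
    simp [f, h3']
  let E : List Bool → ℕ → List Bool × Bool := fun t j => (Nat.rfindOpt (f (t, j))).get (hdom _)
  refine ⟨E, ?_, ?_⟩
  · have hpart : Partrec fun a => Nat.rfindOpt (f a) := Partrec.rfindOpt hf.to_comp
    exact hpart.of_eq_tot fun a => Part.get_mem _
  · intro t j
    obtain ⟨k, hk⟩ := Nat.rfindOpt_spec (Part.get_mem (hdom (t, j)))
    have hk' : f (t, j) k = some (E t j) := hk
    obtain ⟨s, _, hs⟩ := Option.bind_eq_some_iff.1 hk'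
    by_cases hc : N ≤ (it (t, j) s).length
    · rw [if_pos hc] at hs
      have hE : E t j = (t ++ s, g (ext ((it (t, j) s).take N))) := (Option.some.inj hs).symm
      rw [hE]
      refine ⟨List.prefix_append _ _, fun Y hY => ?_⟩
      have hY' : pre Y (t ++ s).length = t ++ s := hY
      have e1 : it (t, j) s = pre (K^[j] Y) (it (t, j) s).length := by
        show (gmap ψ)^[j] (t ++ s) = pre (K^[j] Y) ((gmap ψ)^[j] (t ++ s)).length
        rw [← hY']
        exact h.iter_pre j Y _
      show D Y j = g (ext ((it (t, j) s).take N))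
      rw [hD, e1, pre_take, min_eq_left hc]
      apply hN
      have := pre_ext (pre (K^[j] Y) N)
      rw [pre_length] at this
      exact this.symm
    · rw [if_neg hc] at hs
      exact absurd hs (by simp)

end Vale.Agent.P327
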